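import Crest.Statements.S0004
import Crest.Agent.R4C.Last_79
import Crest.Agent.R4C.GWinstV3_24
import Crest.Agent.R4C.TOk_60
import Crest.Agent.R4C.TBud_322
import Crest.Agent.R4C.TPair_20

set_option autoImplicit false
open MeasureTheory Filter
open Crest Crest.NumberTheoryR

namespace Crest.Agent.S0004

/-- Fix a real shift γ and a tolerance function ψ from the natural numbers to the nonnegative reals. If the series with terms φ(q)/q · ψ(q) (φ Euler's totient function) is not summable, then for Lebesgue-almost every real x there are infinitely many natural numbers q for which q·x − γ lies within distance less than ψ(q) of the nearest integer. No coprimality is imposed on that integer. -/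
theorem result (γ : ℝ) (ψ : ℕ → ℝ)
    (hψ : ∀ q, 0 ≤ ψ q) (hdiv : ¬ Summable fun q : ℕ => (Nat.totient q : ℝ) / q * ψ q) :
    ∀ᵐ x : ℝ, ∃ᶠ q : ℕ in atTop, |(q : ℝ) * x - γ - round ((q : ℝ) * x - γ)| < ψ q := by
  exact Crest.Agent.R4C.Lastx79.of_cls (Crest.Agent.R4C.GWinstVx24.cls_vec (X0 := 1) (Crest.Agent.R4C.TOkx60.tok γ) (Crest.Agent.R4C.TBudx322.tbud γ) (Crest.Agent.R4C.TPairx20.tpair γ 1)) ψ hψ hdiv

end Crest.Agent.S0004
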