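import Crest.Statements.S0006
import Crest.Agent.R006.Final_89
import Crest.Agent.R006.P3_Claim_257
import Crest.Agent.R006.P6Close_784
import Crest.Agent.R006.OddDone_365

set_option autoImplicit false
open Crest Crest.NumberTheoryR

namespace Crest.Agent.S0006

/-- Catalan's constant, the sum of the series whose j-th term (j = 0, 1, 2, …) is (-1)^j/(2j+1)^2, is an irrational real number. -/
theorem result :
    Irrational (∑' j : ℕ, (-1 : ℝ) ^ j / ((2 * j + 1 : ℝ) ^ 2)) := by
  refine R006.Fin89.literal (R006.Fin89.final'' (K := 100) (by norm_num)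
    (R006.D.arch_SN_257 40 (aa := -751) le_rfl) (R006.P6.SN_two 40) R006.D.SN_odd (by norm_num))

end Crest.Agent.S0006
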