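import Crest.Statements.S0024
import Crest.Agent.R018.Wire_819
import Crest.Agent.R018.Top_924
import Crest.Agent.R018.LocInst_925
import Crest.Agent.R018.BadFin_863
import Crest.Agent.R018.CoreBad_863
import Crest.Agent.R018.ProbeEx_658
import Crest.Agent.R018.CC_656

set_option autoImplicit false
open Crest.NumberTheoryR
open Crest Crest.NumberTheoryR

namespace Crest.Agent.S0024

theorem theoremA : Crest.Agent.R018.Corex74.TheoremA :=
  Crest.Agent.R018.Wirex819.theoremA_of
    Crest.Agent.R018.LocInstx925.locT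
    (Crest.Agent.R018.BadFinx863.badFinite_of Crest.Agent.R018.LocInstx925.locT)
    (Crest.Agent.R018.CoreBadx863.badBound_of Crest.Agent.R018.LocInstx925.locT)
    Crest.Agent.R018.ProbeExx658.probeEx_holds
    (Crest.Agent.R018.CCx656.cc_of Crest.Agent.R018.CoreDx820.ndLevel_holds
      Crest.Agent.R018.LemmaGx791.lemmaG_holds
      Crest.Agent.R018.ProbeExx658.probeEx_holds
      Crest.Agent.R018.LocInstx925.locT
      Crest.Agent.R018.CoreFx656.F3_holds
      Crest.Agent.R018.CoreFx656.F4_holds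
      Crest.Agent.R018.F56x791.F5_holds
      Crest.Agent.R018.F56x791.F6_holds
      Crest.Agent.R018.CoreFx656.F7_holds
      Crest.Agent.R018.F9x530.F9_holds)

/-- Let F₁, F₂ be number fields and E₁/F₁, E₂/F₂ Galois extensions (possibly infinite) with E₁ and E₂ solvably closed. Every continuous group homomorphism α from Gal(E₁/F₁) to Gal(E₂/F₂) (Krull topologies) with open image is induced by a field embedding j of E₂ into E₁, in the sense that g ∘ j = j ∘ α(g) for every g in Gal(E₁/F₁). -/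
theorem result
    (F₁ F₂ E₁ E₂ : Type*) [Field F₁] [NumberField F₁] [Field F₂] [NumberField F₂]
    [Field E₁] [Algebra F₁ E₁] [IsGalois F₁ E₁] [Field E₂] [Algebra F₂ E₂] [IsGalois F₂ E₂]
    (h₁ : IsSolvablyClosed E₁) (h₂ : IsSolvablyClosed E₂)
    (α : (E₁ ≃ₐ[F₁] E₁) →* (E₂ ≃ₐ[F₂] E₂)) (hα : Continuous α) (hopen : IsOpen (Set.range α)) :
    ∃ j : E₂ →+* E₁, ∀ g : E₁ ≃ₐ[F₁] E₁, ∀ x : E₂, g (j x) = j (α g x) :=
  Crest.Agent.R018.Topx924.s0024_of_core theoremA Crest.Agent.R018.LocInstx925.loc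
    F₁ F₂ E₁ E₂ h₂ α hα hopen

end Crest.Agent.S0024
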