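import Crest.Statements.S0106
import Crest.Agent.R079.NO_112

set_option autoImplicit false
open Crest Crest.AnalysisR

namespace Crest.Agent.S0106

/-- There is a real constant `C` such that for all complex-valued Schwartz functions `f₁ f₂ f₃` on the line and every function `Tv : ℝ → ℂ` which at each point `x` is the limit, as `ε → 0⁺`, of the truncated integrals `∫_{t ∉ [-ε, ε]} f₁ (x - t) f₂ (x - 2t) f₃ (x - 3t) / t dt` (the symmetric principal value), the `L¹` norm of `Tv` is at most `C` times the product of the `L³` norms of `f₁, f₂, f₃` (norms as `eLpNorm` for Lebesgue measure). -/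
theorem result :
    ∃ C : ℝ, ∀ (f₁ f₂ f₃ : SchwartzMap ℝ ℂ) (Tv : ℝ → ℂ),
      (∀ x : ℝ, Filter.Tendsto
          (fun ε : ℝ => ∫ t in (Set.Icc (-ε) ε)ᶜ, f₁ (x - t) * f₂ (x - 2 * t) * f₃ (x - 3 * t) / (t : ℂ))
          (nhdsWithin 0 (Set.Ioi 0)) (nhds (Tv x))) →
      MeasureTheory.eLpNorm Tv 1 MeasureTheory.volume ≤
        ENNReal.ofReal C * (MeasureTheory.eLpNorm (⇑f₁) 3 MeasureTheory.volume *
          MeasureTheory.eLpNorm (⇑f₂) 3 MeasureTheory.volume *
          MeasureTheory.eLpNorm (⇑f₃) 3 MeasureTheory.volume) := by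
  exact Crest.Agent.R079.NP112.target_closed

end Crest.Agent.S0106
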