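import Crest.Statements.S0115
import Crest.Agent.R087.Last_542

set_option autoImplicit false
open Crest Crest.AnalysisR

namespace Crest.Agent.S0115

/-- There are real constants a with 0 < a < 1/2 and C such that for every vector field v on the Euclidean plane with ‖v x‖ = 1 everywhere and Lipschitz constant at most 1, every complex Schwartz function f on the plane, and every ε with 0 < ε < a, the function x ↦ ∫ f (x - t • v x) / t dt over t ∈ (-a, -ε) ∪ (ε, a) has L² norm at most C times the L² norm of f (norms as eLpNorm for Lebesgue measure). -/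
theorem result :
    ∃ a : ℝ, 0 < a ∧ a < 1 / 2 ∧ ∃ C : ℝ, ∀ v : EuclideanSpace ℝ (Fin 2) → EuclideanSpace ℝ (Fin 2),
      (∀ x, ‖v x‖ = 1) → LipschitzWith 1 v → ∀ f : SchwartzMap (EuclideanSpace ℝ (Fin 2)) ℂ, ∀ ε : ℝ, 0 < ε → ε < a →
        MeasureTheory.eLpNorm
            (fun x : EuclideanSpace ℝ (Fin 2) => ∫ t in Set.Ioo (-a) (-ε) ∪ Set.Ioo ε a, f (x - t • v x) / (t : ℂ)) 2
            MeasureTheory.volume ≤
          ENNReal.ofReal C * MeasureTheory.eLpNorm (⇑f) 2 MeasureTheory.volume := by
  exact Crest.Agent.R087.Lastx542.tgt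

end Crest.Agent.S0115
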