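import Crest.Statements.S0357
import Crest.Agent.R231.EndQ_89
import Crest.Agent.R231.POutsS_475
import Crest.Agent.R231.WgSph_525

set_option autoImplicit false
open scoped Manifold ContDiff
open Crest.GeometryTopology.Geodesic
open Crest Crest.GeometryTopology

namespace Crest.Agent.S0357

/-- Let n ≥ 2 and let g be a smooth Riemannian metric on the unit sphere of Euclidean (n+1)-space with its standard smooth structure (stereographic charts). Then g has infinitely many geometrically distinct non-constant closed geodesics: the set of images of non-constant smooth period-1 loops that are critical points of the g-energy is infinite. Counting images identifies reparametrisations, reversals and iterates of one closed geodesic. -/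
theorem result (n : ℕ) (hn : 2 ≤ n)
    (g : Bundle.ContMDiffRiemannianMetric (𝓡 n) ∞ (EuclideanSpace ℝ (Fin n))
      (TangentSpace (𝓡 n) : Metric.sphere (0 : EuclideanSpace ℝ (Fin (n + 1))) 1 → Type)) :
    {S : Set (Metric.sphere (0 : EuclideanSpace ℝ (Fin (n + 1))) 1) | ∃ γ : ℝ → Metric.sphere (0 : EuclideanSpace ℝ (Fin (n + 1))) 1,
      IsClosedGeodesic (𝓡 n) g γ ∧ (∃ s t, γ s ≠ γ t) ∧ Set.range γ = S}.Infinite :=
  Crest.Agent.R231.EndPx89.infinite_of_POuts n hn (fun g => by
    obtain ⟨k, rfl⟩ : ∃ k, n = k + 1 := ⟨n - 1, by omega⟩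
    obtain ⟨G⟩ : Nonempty (Crest.Agent.R226.GeoData (k + 1) (Crest.Agent.R231.GeoBasex724.SG g)) :=
      Crest.Agent.R231.GeoBasex724.nonempty_geoData g
    exact ⟨Crest.Agent.R231.POutsSx475.poutsS hn g
      (Crest.Agent.R231.WgSphx525.wangOut_SG (by omega) g (Crest.Agent.R231.GeoLugx724.lug G) _)⟩) g

end Crest.Agent.S0357
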