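import Crest.Statements.S0448
import Crest.Agent.R296.Fin_365

set_option autoImplicit false
open FirstOrder FirstOrder.Language Crest.LogicCS.SetTheory
open Crest Crest.LogicCS

namespace Crest.Agent.S0448

/-- If first-order ZF (extensionality, pairing, union, power set, infinity, foundation, separation and replacement schemes; one membership symbol) has a model, then so does ZF with the partition principle (if a set is the graph of a map from X onto Y, some set is the graph of a one-to-one map from Y into X), choice for families indexed by an ordinal (a transitive set of transitive sets), and the negation of choice for sets of non-empty pairwise disjoint sets (a set meeting each exactly once). -/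
theorem result (h : Theory.IsSatisfiable ZF) : Theory.IsSatisfiable (ZF ∪ {ppAx, acwoAx, ∼acAx}) := by
  exact Crest.Agent.R296.Finx365.main

end Crest.Agent.S0448
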